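import Vale.Agent.P242.H71.Final

open MeasureTheory Set Metric Vale.Agent Vale.Agent.P242.H373 Vale.Agent.P242.H719
open scoped ENNReal MeasureTheory

universe u

/-- Bi-Lipschitz charts at the regular points of noncollapsed `RCD(K, n)` spaces. Let `n ≥ 2`, let
`K` be real and let `X` be a complete separable metric space whose `n`-dimensional Hausdorff measure
has full support and makes `X` an `RCD(K, n)` space. Then every `n`-regular point has an open
neighbourhood with a `2`-bi-Lipschitz homeomorphism to an open subset of `ℝⁿ`. -/
theorem Vale.Agent.Results.P242.BiLipschitzCharts.result :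
    ∀ n : ℕ, 2 ≤ n →
      ∀ (X : Type u) [MetricSpace X] [CompleteSpace X] [SecondCountableTopology X]
        [MeasurableSpace X] [BorelSpace X] (K : ℝ),
        (μH[(n : ℝ)] : Measure X).IsOpenPosMeasure →
        P233.CD.IsRCD (μH[(n : ℝ)] : Measure X) K n →
        ∀ p : X, IsRegular n p → ∃ U : Set X, IsOpen U ∧ p ∈ U ∧ BiLipChart n 2 U :=
  P242.H71.final
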